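import Vale.Agent.Lib.P216.Periods

namespace Vale.Agent.Results.P216.DeckActionInfinite

open Vale.Agent.Lib.P216

/-- Let `Γ` act on the metric space `X` like the fundamental group of a closed Riemannian manifold
acts on its universal cover (`IsDeckAction`).  If `Γ` is residually finite and some finite-index
subgroup `H` admits a surjection onto `ℤ` that is not injective, then the quotient `X / Γ` carries
infinitely many closed geodesics with pairwise distinct images. -/
theorem result (Γ : Type*) (X : Type*) [Group Γ] [MetricSpace X] [MulAction Γ X] [Nonempty X]
    (h : IsDeckAction Γ X) (hR : ResFinite Γ) (H : Subgroup Γ) [H.FiniteIndex]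
    (φ : H →* Multiplicative ℤ) (hφ : Function.Surjective φ) (hφ' : ¬ Function.Injective φ) :
    {A : Set X | ∃ c : ℝ → X, IsClosedGeodesic Γ c ∧ trace Γ c = A}.Infinite := by
  intro hfin
  exact hφ' (injective_of_covered Γ (covered_of_finite_traces h hfin) hR H φ hφ)

end Vale.Agent.Results.P216.DeckActionInfinite
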