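import Mathlib

namespace Vale.Agent.Results.P216.VirtuallyIndicable

/-- Every element of `G` is conjugate to an integer power of one of finitely many elements.
This is the property that the fundamental group of a closed Riemannian manifold with only
finitely many geometrically distinct closed geodesics has: every free homotopy class contains a
closed geodesic, which is an iterate of one of the finitely many prime ones. -/
def PowerConjCovered (G : Type*) [Group G] : Prop :=
  ∃ S : Finset G, ∀ g : G, ∃ s ∈ S, ∃ m : ℤ, IsConj g (s ^ m)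

/-- `G` is residually finite: every nontrivial element is missed by some normal subgroup of
finite index. -/
def ResFinite (G : Type*) [Group G] : Prop :=
  ∀ g : G, g ≠ 1 → ∃ N : Subgroup G, N.Normal ∧ N.FiniteIndex ∧ g ∉ N

theorem PowerConjCovered.of_surjective {G Q : Type*} [Group G] [Group Q] (f : G →* Q)
    (hf : Function.Surjective f) (h : PowerConjCovered G) : PowerConjCovered Q := by
  classical
  obtain ⟨S, hS⟩ := h
  refine ⟨S.image f, fun q => ?_⟩
  obtain ⟨g, rfl⟩ := hf q
  obtain ⟨s, hs, m, hm⟩ := hS g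
  refine ⟨f s, Finset.mem_image_of_mem f hs, m, ?_⟩
  rw [← map_zpow]
  exact f.map_isConj hm

/-- a power of `t` centralises the finite normal subgroup `ker ψ` -/
theorem exists_pow_commute {Q : Type*} [Group Q] (ψ : Q →* Multiplicative ℤ) [Finite ψ.ker]
    (t : Q) : ∃ m : ℕ, 0 < m ∧ ∀ k ∈ ψ.ker, t ^ m * k = k * t ^ m := by
  classical
  have hfin : IsOfFinOrder (MulAut.conjNormal t : MulAut ψ.ker) := isOfFinOrder_of_finite _
  obtain ⟨m, hm, hm1⟩ := (isOfFinOrder_iff_pow_eq_one).1 hfin
  refine ⟨m, hm, fun k hk => ?_⟩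
  rw [← map_pow] at hm1
  have h2 : (MulAut.conjNormal (t ^ m) : MulAut ψ.ker) ⟨k, hk⟩ = ⟨k, hk⟩ := by
    rw [hm1]; rfl
  have h3 := congrArg Subtype.val h2
  rw [MulAut.conjNormal_apply] at h3
  simp only at h3
  calc t ^ m * k = (t ^ m * k * (t ^ m)⁻¹) * t ^ m := by group
    _ = k * t ^ m := by rw [h3]

theorem core {Q : Type*} [Group Q] (hF : PowerConjCovered Q) (ψ : Q →* Multiplicative ℤ)
    (hψ : Function.Surjective ψ) [Finite ψ.ker] : Function.Injective ψ := by
  classical
  obtain ⟨S, hS⟩ := hF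
  obtain ⟨t, ht⟩ := hψ (Multiplicative.ofAdd 1)
  obtain ⟨m, hm, hcomm⟩ := exists_pow_commute ψ t
  set z : Q := t ^ m with hz
  -- `z` is central
  have hcentral : ∀ q : Q, z * q = q * z := by
    intro q
    set n : ℤ := Multiplicative.toAdd (ψ q) with hn
    have hk : q * t ^ (-n) ∈ ψ.ker := by
      rw [MonoidHom.mem_ker, map_mul, map_zpow, ht]
      apply Multiplicative.toAdd.injective
      simp [hn]
    have hq : q = (q * t ^ (-n)) * t ^ n := by group
    have h1 : z * t ^ n = t ^ n * z := by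
      rw [hz, ← zpow_natCast, ← zpow_add, ← zpow_add, add_comm]
    calc z * q = z * ((q * t ^ (-n)) * t ^ n) := by rw [← hq]
      _ = (z * (q * t ^ (-n))) * t ^ n := by simp only [mul_assoc]
      _ = ((q * t ^ (-n)) * z) * t ^ n := by rw [hcomm _ hk]
      _ = (q * t ^ (-n)) * (z * t ^ n) := by rw [mul_assoc]
      _ = (q * t ^ (-n)) * (t ^ n * z) := by rw [h1]
      _ = ((q * t ^ (-n)) * t ^ n) * z := by simp only [mul_assoc]
      _ = q * z := by rw [← hq]
  have hψz : Multiplicative.toAdd (ψ z) = (m : ℤ) := by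
    rw [hz, map_pow, ht]; simp
  rw [injective_iff_map_eq_one]
  intro a ha
  have hak : a ∈ ψ.ker := ha
  set r : ℕ := Nat.card ψ.ker with hr
  have hr0 : 0 < r := Nat.card_pos
  have har : a ^ r = 1 := by
    have h := pow_card_eq_one' (G := ψ.ker) (x := ⟨a, hak⟩)
    have h' := congrArg Subtype.val h
    rw [Subgroup.coe_pow, Subgroup.coe_one] at h'
    exact h'
  -- the elements `x i = a * z ^ (r ^ i)`
  have hchoice : ∀ i : ℕ, ∃ s : S, ∃ e : ℤ, IsConj (a * z ^ (r ^ i)) ((s : Q) ^ e) := by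
    intro i
    obtain ⟨s, hs, e, he⟩ := hS (a * z ^ (r ^ i))
    exact ⟨⟨s, hs⟩, e, he⟩
  choose f hf using hchoice
  obtain ⟨i, j, hij, hfij⟩ := Finite.exists_ne_map_eq_of_infinite f
  -- key claim for i < j
  have key : ∀ i j : ℕ, i < j → f i = f j → a = 1 := by
    intro i j hlt hfij
    obtain ⟨ei, hei⟩ := hf i
    obtain ⟨ej, hej⟩ := hf j
    rw [← hfij] at hej
    set s : Q := (f i : Q) with hs
    set σ : ℤ := Multiplicative.toAdd (ψ s) with hσ
    have hval : ∀ (l : ℕ) (e : ℤ), IsConj (a * z ^ (r ^ l)) (s ^ e) →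
        (m : ℤ) * (r : ℤ) ^ l = e * σ := by
      intro l e h
      have h1 : ψ (a * z ^ (r ^ l)) = ψ (s ^ e) := by
        have := ψ.map_isConj h
        exact isConj_iff_eq.1 this
      have h2 := congrArg Multiplicative.toAdd h1
      rw [map_mul, ha, one_mul, map_pow, map_zpow, toAdd_pow, toAdd_zpow, hψz] at h2
      rw [← hσ] at h2
      simp only [smul_eq_mul, nsmul_eq_mul] at h2
      push_cast at h2
      linarith
    have h1 := hval i ei hei
    have h2 := hval j ej hej
    obtain ⟨d, hd, rfl⟩ : ∃ d : ℕ, 0 < d ∧ j = i + d := ⟨j - i, by omega, by omega⟩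
    have hσ0 : σ ≠ 0 := by
      intro h0
      rw [h0, mul_zero] at h1
      have : (0 : ℤ) < (m : ℤ) * (r : ℤ) ^ i := by positivity
      omega
    have hej' : ej = ei * (r : ℤ) ^ d := by
      have : ej * σ = (ei * (r : ℤ) ^ d) * σ := by
        rw [← h2, pow_add, ← mul_assoc, h1]; ring
      exact mul_right_cancel₀ hσ0 this
    have h3 : IsConj ((a * z ^ (r ^ i)) ^ (r ^ d)) ((s ^ ei) ^ (r ^ d)) := hei.pow _
    have h4 : (s ^ ei) ^ (r ^ d) = s ^ ej := by
      rw [hej', zpow_mul, ← zpow_natCast]; push_cast; rfl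
    have hcz : Commute a (z ^ (r ^ i)) := by
      have : Commute z a := hcentral a
      exact (this.pow_left _).symm
    have h5 : (a * z ^ (r ^ i)) ^ (r ^ d) = z ^ (r ^ (i + d)) := by
      rw [hcz.mul_pow, ← pow_mul, ← pow_add]
      obtain ⟨d', rfl⟩ : ∃ d', d = d' + 1 := ⟨d - 1, by omega⟩
      rw [pow_succ' r d', pow_mul, har, one_pow, one_mul]
    rw [h4, h5] at h3
    have h6 : IsConj (a * z ^ (r ^ (i + d))) (z ^ (r ^ (i + d))) := hej.trans h3.symm
    obtain ⟨c, hc⟩ := isConj_iff.1 h6.symm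
    have hzc : Commute z c := hcentral c
    have h7 : c * z ^ (r ^ (i + d)) * c⁻¹ = z ^ (r ^ (i + d)) := by
      have : Commute (z ^ (r ^ (i + d))) c := hzc.pow_left _
      rw [← this.eq]; group
    rw [h7] at hc
    exact (mul_eq_right.1 hc.symm)
  rcases lt_or_gt_of_ne hij with h | h
  · exact key i j h hfij
  · exact key j i h hfij.symm

theorem exists_gen {G : Type*} [Group G] (H : Subgroup G) (w : G) :
    ∃ n : ℤ, w ^ n ∈ H ∧ ∀ m : ℤ, w ^ m ∈ H → ∃ l : ℤ, m = n * l := by
  let A : AddSubgroup ℤ :=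
    { carrier := {m | w ^ m ∈ H}
      add_mem' := by
        intro a b ha hb
        simp only [Set.mem_ofPred_eq] at *
        rw [zpow_add]; exact H.mul_mem ha hb
      zero_mem' := by simp
      neg_mem' := by
        intro a ha
        simp only [Set.mem_ofPred_eq] at *
        rw [zpow_neg]; exact H.inv_mem ha }
  obtain ⟨n, hn⟩ := Int.subgroup_cyclic A
  have hnA : n ∈ A := by rw [hn]; exact AddSubgroup.subset_closure rfl
  refine ⟨n, hnA, fun m hm => ?_⟩
  have hmA : m ∈ A := hm
  rw [hn, AddSubgroup.mem_closure_singleton] at hmA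
  obtain ⟨l, hl⟩ := hmA
  exact ⟨l, by rw [← hl]; simp [mul_comm]⟩

theorem PowerConjCovered.subgroup {G : Type*} [Group G] (h : PowerConjCovered G)
    (H : Subgroup G) [H.FiniteIndex] : PowerConjCovered H := by
  classical
  obtain ⟨S, hS⟩ := h
  choose gen hgenH hgenDiv using exists_gen H
  have : Finite (G ⧸ H) := Subgroup.finite_quotient_of_finiteIndex
  have := Fintype.ofFinite (G ⧸ H)
  let W : (G ⧸ H) × G → H := fun p =>
    ⟨((p.1.out)⁻¹ * p.2 * ((p.1.out)⁻¹)⁻¹) ^ gen ((p.1.out)⁻¹ * p.2 * ((p.1.out)⁻¹)⁻¹), hgenH _⟩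
  refine ⟨((Finset.univ : Finset (G ⧸ H)) ×ˢ S).image W, fun h0 => ?_⟩
  obtain ⟨s, hs, m, hm⟩ := hS (h0 : G)
  obtain ⟨c, hc⟩ := isConj_iff.1 hm
  -- write `c⁻¹ = y * u`
  obtain ⟨y, hy⟩ := QuotientGroup.mk_out_eq_mul H c
  set q : G ⧸ H := (QuotientGroup.mk c : G ⧸ H) with hq
  set u : G := (q.out)⁻¹ with hu
  set w : G := u * s * u⁻¹ with hw
  have hcu : c = u⁻¹ * (y : G)⁻¹ := by
    rw [hu, inv_inv, hy]; group
  have hwm : w ^ m = (y : G)⁻¹ * (h0 : G) * (y : G) := by
    rw [hw, conj_zpow, ← hc, hcu]; group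
  have hwH : w ^ m ∈ H := by
    rw [hwm]; exact H.mul_mem (H.mul_mem (H.inv_mem y.2) h0.2) y.2
  obtain ⟨l, hl⟩ := hgenDiv w m hwH
  refine ⟨W (q, s), Finset.mem_image_of_mem W (Finset.mem_product.2 ⟨Finset.mem_univ _, hs⟩),
    l, ?_⟩
  rw [isConj_iff]
  refine ⟨y⁻¹, ?_⟩
  apply Subtype.ext
  have hWval : ((W (q, s) : H) : G) = w ^ gen w := rfl
  rw [Subgroup.coe_zpow, hWval, ← zpow_mul, ← hl, hwm]
  simp

/-- **Main theorem.**  Let `G` be a residually finite group all of whose elements are conjugate to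
powers of finitely many elements, and let `H` be a subgroup of finite index.  Then every
surjective homomorphism from `H` onto the infinite cyclic group is injective. -/
theorem result (G : Type*) [Group G] (hF : PowerConjCovered G) (hR : ResFinite G)
    (H : Subgroup G) [H.FiniteIndex] (φ : H →* Multiplicative ℤ) (hφ : Function.Surjective φ) :
    Function.Injective φ := by
  classical
  have hFH : PowerConjCovered H := hF.subgroup H
  rw [injective_iff_map_eq_one]
  intro a ha
  by_contra hne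
  have hne' : (a : G) ≠ 1 := fun h => hne (Subtype.ext h)
  obtain ⟨N, hNn, hNf, haN⟩ := hR (a : G) hne'
  have := hNn
  have := hNf
  let N' : Subgroup H := N.subgroupOf H
  have : N'.Normal := inferInstanceAs (N.subgroupOf H).Normal
  have : N'.FiniteIndex := inferInstanceAs (N.subgroupOf H).FiniteIndex
  let L : Subgroup H := φ.ker ⊓ N'
  have : L.Normal := inferInstanceAs (φ.ker ⊓ N').Normal
  have hLker : L ≤ φ.ker := inf_le_left
  let ψ : H ⧸ L →* Multiplicative ℤ := QuotientGroup.lift L φ hLker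
  have hψ : Function.Surjective ψ := by
    intro x
    obtain ⟨h, rfl⟩ := hφ x
    exact ⟨QuotientGroup.mk h, rfl⟩
  have hFQ : PowerConjCovered (H ⧸ L) :=
    hFH.of_surjective (QuotientGroup.mk' L) (QuotientGroup.mk'_surjective L)
  -- the kernel of `ψ` is finite
  let π : H ⧸ L →* H ⧸ N' := QuotientGroup.map L N' (MonoidHom.id H) (by
    intro x hx
    exact hx.2)
  have : Finite (H ⧸ N') := Subgroup.finite_quotient_of_finiteIndex
  have : Finite ψ.ker := by
    apply Finite.of_injective (fun k : ψ.ker => π k)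
    intro k1 k2 hk
    apply Subtype.ext
    obtain ⟨k1, hk1⟩ := k1
    obtain ⟨k2, hk2⟩ := k2
    simp only at hk ⊢
    induction k1 using QuotientGroup.induction_on with
    | H x1 =>
      induction k2 using QuotientGroup.induction_on with
      | H x2 =>
        have e1 : φ x1 = 1 := hk1
        have e2 : φ x2 = 1 := hk2
        have e3 : (QuotientGroup.mk x1 : H ⧸ N') = QuotientGroup.mk x2 := hk
        rw [QuotientGroup.eq] at e3 ⊢
        have e4 : x1⁻¹ * x2 ∈ φ.ker := by
          rw [MonoidHom.mem_ker, map_mul, map_inv, e1, e2]; simp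
        exact ⟨e4, e3⟩
  have hinj := core hFQ ψ hψ
  have h1 : ψ (QuotientGroup.mk a) = ψ 1 := by
    rw [map_one]; exact ha
  have h2 : (QuotientGroup.mk a : H ⧸ L) = 1 := hinj h1
  rw [QuotientGroup.eq_one_iff] at h2
  exact haN h2.2

end Vale.Agent.Results.P216.VirtuallyIndicable
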